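import Mathlib
import Crest.Prelude.Def_OrderedMatrix

/-!
# S0066: construction independent lemmas (farness by transversals, counting by ties, arithmetic,
transport to abstract linear orders).
-/

set_option autoImplicit false
open Crest.CombinatoricsR.OrderedMatrix

namespace Crest.Agent.S66

/-- the type of ordered copies. -/
abbrev Copy {k n : ℕ} (H : Fin k → Fin k → Bool) (A : Fin n → Fin n → Bool) : Type :=
  {rc : (Fin k → Fin n) × (Fin k → Fin n) //
    StrictMono rc.1 ∧ StrictMono rc.2 ∧ ∀ i j : Fin k, A (rc.1 i) (rc.2 j) = H i j}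

theorem orderedCopyCount_eq_card {k n : ℕ} (H : Fin k → Fin k → Bool)
    (A : Fin n → Fin n → Bool) : orderedCopyCount H A = Fintype.card (Copy H A) := rfl

theorem orderedCopyCount_ne_zero {k n : ℕ} {H : Fin k → Fin k → Bool}
    {A : Fin n → Fin n → Bool} (rows cols : Fin k → Fin n) (hr : StrictMono rows)
    (hc : StrictMono cols) (h : ∀ i j, A (rows i) (cols j) = H i j) :
    orderedCopyCount H A ≠ 0 := by
  rw [orderedCopyCount_eq_card]
  have hne : Nonempty (Copy H A) := ⟨⟨(rows, cols), hr, hc, h⟩⟩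
  exact Fintype.card_ne_zero

/-- (G1) farness from a family of transversals. -/
theorem farness_of_transversals {k n : ℕ} (H : Fin k → Fin k → Bool)
    (A : Fin n → Fin n → Bool) {Ω : Type*} [Fintype Ω]
    (Rob : Ω → Finset (Fin n × Fin n)) (m : ℕ)
    (huse : ∀ cell : Fin n × Fin n, (Finset.univ.filter (fun ω => cell ∈ Rob ω)).card ≤ m)
    (hforce : ∀ (B : Fin n → Fin n → Bool) (ω : Ω),
      (∀ cell ∈ Rob ω, B cell.1 cell.2 = A cell.1 cell.2) → orderedCopyCount H B ≠ 0)
    (B : Fin n → Fin n → Bool) (hB : orderedCopyCount H B = 0) :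
    Fintype.card Ω ≤ m * (Finset.univ.filter (fun rc : Fin n × Fin n =>
      A rc.1 rc.2 ≠ B rc.1 rc.2)).card := by
  classical
  have h1 : ∀ ω : Ω, ∃ cell ∈ Rob ω, A cell.1 cell.2 ≠ B cell.1 cell.2 := by
    intro ω
    by_contra hcon
    push Not at hcon
    exact hforce B ω (fun cell hcell => (hcon cell hcell).symm) hB
  choose f hfR hfne using h1
  have h2 : (Finset.univ : Finset Ω).card ≤ m * ((Finset.univ : Finset Ω).image f).card := by
    apply Finset.card_le_mul_card_image
    intro a _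
    refine le_trans (Finset.card_le_card ?_) (huse a)
    intro ω hω
    simp only [Finset.mem_filter, Finset.mem_univ, true_and] at hω ⊢
    rw [← hω]; exact hfR ω
  rw [Finset.card_univ] at h2
  refine le_trans h2 (Nat.mul_le_mul_left m (Finset.card_le_card ?_))
  intro a ha
  simp only [Finset.mem_image, Finset.mem_univ, true_and] at ha
  obtain ⟨ω, rfl⟩ := ha
  simp only [Finset.mem_filter, Finset.mem_univ, true_and]
  exact hfne ω

/-- (G2) counting: every copy passes through a tie. -/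
theorem count_le_of_tie {k n : ℕ} (H : Fin k → Fin k → Bool) (A : Fin n → Fin n → Bool)
    (i₀ j₀ : Fin k) (Tie : Finset (Fin n × Fin n))
    (htie : ∀ rows cols : Fin k → Fin n, StrictMono rows → StrictMono cols →
      (∀ i j, A (rows i) (cols j) = H i j) → (rows i₀, cols j₀) ∈ Tie) :
    orderedCopyCount H A ≤ Tie.card * n ^ (k - 1) * n ^ (k - 1) := by
  classical
  rw [orderedCopyCount_eq_card]
  let F : Copy H A → Tie × ({i : Fin k // i ≠ i₀} → Fin n) × ({j : Fin k // j ≠ j₀} → Fin n) :=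
    fun c => (⟨(c.1.1 i₀, c.1.2 j₀), htie _ _ c.2.1 c.2.2.1 c.2.2.2⟩,
      fun i => c.1.1 i.1, fun j => c.1.2 j.1)
  have hF : Function.Injective F := by
    intro c c' h
    simp only [F, Prod.mk.injEq, Subtype.mk.injEq] at h
    obtain ⟨⟨h1, h2⟩, h3, h4⟩ := h
    apply Subtype.ext
    apply Prod.ext
    · funext i
      by_cases hi : i = i₀
      · rw [hi]; exact h1
      · exact congrFun h3 ⟨i, hi⟩
    · funext j
      by_cases hj : j = j₀
      · rw [hj]; exact h2
      · exact congrFun h4 ⟨j, hj⟩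
  have hcard := Fintype.card_le_of_injective F hF
  have e1 : Fintype.card {i : Fin k // i ≠ i₀} = k - 1 := by
    rw [Fintype.card_subtype_compl]; simp
  have e2 : Fintype.card {j : Fin k // j ≠ j₀} = k - 1 := by
    rw [Fintype.card_subtype_compl]; simp
  simp only [Fintype.card_prod, Fintype.card_fun, Fintype.card_fin, e1, e2,
    Fintype.card_coe] at hcard
  rw [mul_assoc]
  exact hcard

/-- (G3a) the farness inequality of the frozen statement. -/
theorem farness_arith (h D : ℕ) (hD : 4 ^ h ≤ D) :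
    ((386 * (h : ℝ) + 2) ^ 2)⁻¹ * (((386 * h + 2) * 2 ^ h : ℕ) : ℝ) ^ 2 ≤ (D : ℝ) := by
  have hpos : (0 : ℝ) < 386 * (h : ℝ) + 2 := by positivity
  have e : ((386 * (h : ℝ) + 2) ^ 2)⁻¹ * (((386 * h + 2) * 2 ^ h : ℕ) : ℝ) ^ 2 = (4 : ℝ) ^ h := by
    push_cast
    rw [mul_pow, ← mul_assoc, inv_mul_cancel₀ (by positivity), one_mul, ← pow_mul, mul_comm h 2,
      pow_mul]
    norm_num
  rw [e]
  exact_mod_cast hD

/-- (G3b) the counting inequality of the frozen statement. -/
theorem count_arith (h c : ℕ)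
    (hc : c ≤ 2 ^ h * ((386 * h + 2) * 2 ^ h) ^ 65 * ((386 * h + 2) * 2 ^ h) ^ 65) :
    (c : ℝ) / (((386 * h + 2) * 2 ^ h : ℕ) : ℝ) ^ 132 ≤
      ((386 * (h : ℝ) + 2) ^ 2)⁻¹ * (2 : ℝ)⁻¹ ^ h := by
  have hpos : (0 : ℝ) < 386 * (h : ℝ) + 2 := by positivity
  have h2 : (0 : ℝ) < (2 : ℝ) ^ h := by positivity
  set n : ℝ := (((386 * h + 2) * 2 ^ h : ℕ) : ℝ) with hn
  have hn' : n = (386 * (h : ℝ) + 2) * 2 ^ h := by rw [hn]; push_cast; ring
  have hnpos : 0 < n := by rw [hn']; positivity
  have hc' : (c : ℝ) ≤ 2 ^ h * n ^ 65 * n ^ 65 := by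
    rw [hn]; exact_mod_cast hc
  rw [div_le_iff₀ (by positivity)]
  have e : ((386 * (h : ℝ) + 2) ^ 2)⁻¹ * (2 : ℝ)⁻¹ ^ h * n ^ 132 = 2 ^ h * n ^ 65 * n ^ 65 := by
    have e1 : n ^ 132 = n ^ 2 * (n ^ 65 * n ^ 65) := by ring
    have e2 : ((386 * (h : ℝ) + 2) ^ 2)⁻¹ * (2 : ℝ)⁻¹ ^ h * n ^ 2 = 2 ^ h := by
      rw [hn', inv_pow]
      field_simp
    rw [e1, ← mul_assoc, e2]; ring
  rw [e]
  exact hc'

/-! ### (G4) transport to abstract finite linear orders -/

section Transport

variable {R C : Type*} [LinearOrder R] [LinearOrder C]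

/-- an ordered copy of `H` in a matrix indexed by linear orders. -/
def HasCopy {k : ℕ} (H : Fin k → Fin k → Bool) (B : R → C → Bool) : Prop :=
  ∃ (rows : Fin k → R) (cols : Fin k → C), StrictMono rows ∧ StrictMono cols ∧
    ∀ i j, B (rows i) (cols j) = H i j

/-- pull back a matrix along order isomorphisms. -/
def pull {n : ℕ} (eR : Fin n ≃o R) (eC : Fin n ≃o C) (B : R → C → Bool) :
    Fin n → Fin n → Bool := fun i j => B (eR i) (eC j)

/-- push forward. -/
def push {n : ℕ} (eR : Fin n ≃o R) (eC : Fin n ≃o C) (B : Fin n → Fin n → Bool) :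
    R → C → Bool := fun r c => B (eR.symm r) (eC.symm c)

theorem pull_push {n : ℕ} (eR : Fin n ≃o R) (eC : Fin n ≃o C) (B : Fin n → Fin n → Bool) :
    pull eR eC (push eR eC B) = B := by
  funext i j; simp [pull, push]

theorem count_pull_ne_zero {k n : ℕ} {H : Fin k → Fin k → Bool} (eR : Fin n ≃o R)
    (eC : Fin n ≃o C) {B : R → C → Bool} (h : HasCopy H B) :
    orderedCopyCount H (pull eR eC B) ≠ 0 := by
  obtain ⟨rows, cols, hr, hc, hH⟩ := h
  refine orderedCopyCount_ne_zero (fun i => eR.symm (rows i)) (fun j => eC.symm (cols j))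
    (eR.symm.strictMono.comp hr) (eC.symm.strictMono.comp hc) ?_
  intro i j
  simp [pull, hH]

/-- number of differing cells is invariant under transport. -/
theorem diff_card_pull [Fintype R] [Fintype C] {n : ℕ} (eR : Fin n ≃o R) (eC : Fin n ≃o C)
    (A : R → C → Bool) (B : Fin n → Fin n → Bool) :
    (Finset.univ.filter (fun rc : Fin n × Fin n => pull eR eC A rc.1 rc.2 ≠ B rc.1 rc.2)).card =
      (Finset.univ.filter (fun rc : R × C => A rc.1 rc.2 ≠ push eR eC B rc.1 rc.2)).card := by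
  classical
  apply Finset.card_bij (fun rc _ => (eR rc.1, eC rc.2))
  · intro rc hrc
    simp only [Finset.mem_filter, Finset.mem_univ, true_and] at hrc ⊢
    simpa [pull, push] using hrc
  · intro a _ b _ hab
    simp only [Prod.mk.injEq, EmbeddingLike.apply_eq_iff_eq] at hab
    exact Prod.ext hab.1 hab.2
  · intro rc hrc
    simp only [Finset.mem_filter, Finset.mem_univ, true_and] at hrc
    refine ⟨(eR.symm rc.1, eC.symm rc.2), ?_, by simp⟩
    simp only [Finset.mem_filter, Finset.mem_univ, true_and]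
    simpa [pull, push] using hrc

/-- abstract form of (G1). -/
theorem farness_abstract [Fintype R] [Fintype C] {k n : ℕ} (H : Fin k → Fin k → Bool)
    (eR : Fin n ≃o R) (eC : Fin n ≃o C) (A : R → C → Bool) {Ω : Type*} [Fintype Ω]
    (Rob : Ω → Finset (R × C)) (m : ℕ)
    (huse : ∀ cell : R × C, (Finset.univ.filter (fun ω => cell ∈ Rob ω)).card ≤ m)
    (hforce : ∀ (B : R → C → Bool) (ω : Ω),
      (∀ cell ∈ Rob ω, B cell.1 cell.2 = A cell.1 cell.2) → HasCopy H B)
    (B : Fin n → Fin n → Bool) (hB : orderedCopyCount H B = 0) :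
    Fintype.card Ω ≤ m * (Finset.univ.filter (fun rc : Fin n × Fin n =>
      pull eR eC A rc.1 rc.2 ≠ B rc.1 rc.2)).card := by
  classical
  rw [diff_card_pull]
  have h1 : ∀ ω : Ω, ∃ cell ∈ Rob ω, A cell.1 cell.2 ≠ push eR eC B cell.1 cell.2 := by
    intro ω
    by_contra hcon
    push Not at hcon
    have := count_pull_ne_zero eR eC
      (hforce (push eR eC B) ω (fun cell hcell => (hcon cell hcell).symm))
    rw [pull_push] at this
    exact this hB
  choose f hfR hfne using h1
  have h2 : (Finset.univ : Finset Ω).card ≤ m * ((Finset.univ : Finset Ω).image f).card := by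
    apply Finset.card_le_mul_card_image
    intro a _
    refine le_trans (Finset.card_le_card ?_) (huse a)
    intro ω hω
    simp only [Finset.mem_filter, Finset.mem_univ, true_and] at hω ⊢
    rw [← hω]; exact hfR ω
  rw [Finset.card_univ] at h2
  refine le_trans h2 (Nat.mul_le_mul_left m (Finset.card_le_card ?_))
  intro a ha
  simp only [Finset.mem_image, Finset.mem_univ, true_and] at ha
  obtain ⟨ω, rfl⟩ := ha
  simp only [Finset.mem_filter, Finset.mem_univ, true_and]
  exact hfne ω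

/-- abstract form of (G2). -/
theorem count_abstract {k n : ℕ} (H : Fin k → Fin k → Bool)
    (eR : Fin n ≃o R) (eC : Fin n ≃o C) (A : R → C → Bool) (i₀ j₀ : Fin k)
    (Tie : Finset (R × C))
    (htie : ∀ (rows : Fin k → R) (cols : Fin k → C), StrictMono rows → StrictMono cols →
      (∀ i j, A (rows i) (cols j) = H i j) → (rows i₀, cols j₀) ∈ Tie) :
    orderedCopyCount H (pull eR eC A) ≤ Tie.card * n ^ (k - 1) * n ^ (k - 1) := by
  classical
  have hinj : Function.Injective (fun rc : R × C => (eR.symm rc.1, eC.symm rc.2)) := by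
    intro a b hab
    simp only [Prod.mk.injEq, EmbeddingLike.apply_eq_iff_eq] at hab
    exact Prod.ext hab.1 hab.2
  have := count_le_of_tie H (pull eR eC A) i₀ j₀
    (Tie.image (fun rc => (eR.symm rc.1, eC.symm rc.2))) (by
      intro rows cols hr hc hH
      have h1 := htie (fun i => eR (rows i)) (fun j => eC (cols j))
        (eR.strictMono.comp hr) (eC.strictMono.comp hc) hH
      rw [Finset.mem_image]
      exact ⟨_, h1, by simp⟩)
  rwa [Finset.card_image_of_injective _ hinj] at this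

/-- **Assembly**: the frozen statement for one `h`, from the abstract data. -/
theorem final_of_abstract [Fintype R] [Fintype C] (H : Fin 66 → Fin 66 → Bool) (h : ℕ)
    (hR : Fintype.card R = (386 * h + 2) * 2 ^ h) (hC : Fintype.card C = (386 * h + 2) * 2 ^ h)
    (A : R → C → Bool) {Ω : Type*} [Fintype Ω] (hΩ : Fintype.card Ω = 2 ^ h * 4 ^ h)
    (Rob : Ω → Finset (R × C))
    (huse : ∀ cell : R × C, (Finset.univ.filter (fun ω => cell ∈ Rob ω)).card ≤ 2 ^ h)
    (hforce : ∀ (B : R → C → Bool) (ω : Ω),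
      (∀ cell ∈ Rob ω, B cell.1 cell.2 = A cell.1 cell.2) → HasCopy H B)
    (i₀ j₀ : Fin 66) (Tie : Finset (R × C)) (hTie : Tie.card ≤ 2 ^ h)
    (htie : ∀ (rows : Fin 66 → R) (cols : Fin 66 → C), StrictMono rows → StrictMono cols →
      (∀ i j, A (rows i) (cols j) = H i j) → (rows i₀, cols j₀) ∈ Tie) :
    ∃ A : Fin ((386 * h + 2) * 2 ^ h) → Fin ((386 * h + 2) * 2 ^ h) → Bool,
        (∀ B : Fin ((386 * h + 2) * 2 ^ h) → Fin ((386 * h + 2) * 2 ^ h) → Bool,
          orderedCopyCount H B = 0 →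
            ((386 * (h : ℝ) + 2) ^ 2)⁻¹ * (((386 * h + 2) * 2 ^ h : ℕ) : ℝ) ^ 2 ≤
              ((Finset.univ.filter (fun rc : Fin ((386 * h + 2) * 2 ^ h) × Fin ((386 * h + 2) * 2 ^ h) =>
                A rc.1 rc.2 ≠ B rc.1 rc.2)).card : ℝ)) ∧
        (orderedCopyCount H A : ℝ) /
            (((386 * h + 2) * 2 ^ h : ℕ) : ℝ) ^ 132 ≤
          ((386 * (h : ℝ) + 2) ^ 2)⁻¹ * (2 : ℝ)⁻¹ ^ h := by
  let eR : Fin ((386 * h + 2) * 2 ^ h) ≃o R := Fintype.orderIsoFinOfCardEq R hR
  let eC : Fin ((386 * h + 2) * 2 ^ h) ≃o C := Fintype.orderIsoFinOfCardEq C hC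
  refine ⟨pull eR eC A, ?_, ?_⟩
  · intro B hB
    apply farness_arith
    have h1 := farness_abstract H eR eC A Rob (2 ^ h) huse hforce B hB
    rw [hΩ] at h1
    exact Nat.le_of_mul_le_mul_left h1 (by positivity)
  · apply count_arith
    have h1 := count_abstract H eR eC A i₀ j₀ Tie htie
    refine le_trans h1 ?_
    have : (66 - 1 : ℕ) = 65 := rfl
    rw [this]
    gcongr

end Transport

end Crest.Agent.S66
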