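import Crest.Statements.S0066

/-! Generic counting lemma for S0066 (helper16): if every ordered copy of `H` in `A` puts the entry
`(i₀, j₀)` of `H` on a cell of a set `T`, then there are at most `|T| * n^k * n^k` copies. -/

set_option autoImplicit false

namespace Crest.Agent.S66

open Crest.CombinatoricsR.OrderedMatrix

theorem orderedCopyCount_le_of_pinned {k n : ℕ} (H : Fin (k + 1) → Fin (k + 1) → Bool)
    (A : Fin n → Fin n → Bool) (i₀ j₀ : Fin (k + 1)) (T : Finset (Fin n × Fin n))
    (hT : ∀ rows cols : Fin (k + 1) → Fin n, StrictMono rows → StrictMono cols →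
      (∀ i j, A (rows i) (cols j) = H i j) → (rows i₀, cols j₀) ∈ T) :
    orderedCopyCount H A ≤ T.card * n ^ k * n ^ k := by
  classical
  unfold orderedCopyCount
  let f : {rc : (Fin (k + 1) → Fin n) × (Fin (k + 1) → Fin n) //
      StrictMono rc.1 ∧ StrictMono rc.2 ∧ ∀ i j : Fin (k + 1), A (rc.1 i) (rc.2 j) = H i j} →
      (T × (Fin k → Fin n)) × (Fin k → Fin n) := fun rc =>
    ((⟨(rc.1.1 i₀, rc.1.2 j₀), hT _ _ rc.2.1 rc.2.2.1 rc.2.2.2⟩, rc.1.1 ∘ i₀.succAbove),
      rc.1.2 ∘ j₀.succAbove)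
  have hf : Function.Injective f := by
    rintro ⟨⟨r, c⟩, h⟩ ⟨⟨r', c'⟩, h'⟩ he
    simp only [f, Prod.mk.injEq, Subtype.mk.injEq] at he
    obtain ⟨⟨⟨h1, h2⟩, h3⟩, h4⟩ := he
    have hr : r = r' := by
      funext i
      rcases Fin.eq_self_or_eq_succAbove i₀ i with rfl | ⟨j, rfl⟩
      · exact h1
      · exact congrFun h3 j
    have hc : c = c' := by
      funext i
      rcases Fin.eq_self_or_eq_succAbove j₀ i with rfl | ⟨j, rfl⟩
      · exact h2
      · exact congrFun h4 j
    subst hr hc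
    rfl
  calc Fintype.card _ ≤ Fintype.card ((T × (Fin k → Fin n)) × (Fin k → Fin n)) :=
        Fintype.card_le_of_injective f hf
    _ = T.card * n ^ k * n ^ k := by
        simp [Fintype.card_prod, Fintype.card_pi]

end Crest.Agent.S66
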